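import Vale.Agent.P253.Mfd.Defs
import Vale.Agent.P253.CStar.Defs

/-!
P253: one-parameter groups of biholomorphisms and holomorphic circle actions (not assumed to
preserve the metric).
-/

open scoped Manifold ContDiff Topology Bundle
open Complex

noncomputable section

namespace Vale.Agent.P253.R2

variable (E : Type*) [NormedAddCommGroup E] [NormedSpace ℂ E]
  {M : Type*} [TopologicalSpace M] [ChartedSpace E M]

/-- `ρ` is a smooth one-parameter group of holomorphic maps of `M` (a smooth action of `(ℝ, +)` on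
the complex manifold `M` by biholomorphisms; no metric is involved) -/
structure IsHolFlow (ρ : ℝ → M → M) : Prop where
  zero : ∀ x, ρ 0 x = x
  add : ∀ s t x, ρ (s + t) x = ρ s (ρ t x)
  smooth : ContMDiff (𝓘(ℝ, ℝ).prod 𝓘(ℝ, E)) 𝓘(ℝ, E) ∞ (fun q : ℝ × M => ρ q.1 q.2)
  holo : ∀ t, MDifferentiable 𝓘(ℂ, E) 𝓘(ℂ, E) (ρ t)

/-- `ρ` is a smooth action of the circle `ℝ / 2πℤ` on the complex manifold `M` by
biholomorphisms -/
structure IsHolCircleAction (ρ : ℝ → M → M) : Prop extends IsHolFlow E ρ where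
  period : ∀ x, ρ (2 * Real.pi) x = x

/-- `ψ` is a holomorphic action of the group `(ℂ, +)` on the complex manifold `M` -/
structure IsHolCFlow (ψ : ℂ → M → M) : Prop where
  zero : ∀ x, ψ 0 x = x
  add : ∀ s t x, ψ (s + t) x = ψ s (ψ t x)
  holo : ContMDiff (𝓘(ℂ, ℂ).prod 𝓘(ℂ, E)) 𝓘(ℂ, E) 1 (fun q : ℂ × M => ψ q.1 q.2)

end Vale.Agent.P253.R2
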