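import Vale.Agent.P253.CStar.Final
import Vale.Agent.P253.R2.H445.Defs

/-!
P253: a `2πi`-periodic holomorphic action of `ℂ` is a holomorphic action of `ℂ*`.
-/

open scoped Manifold ContDiff Topology Bundle
open Set Metric Complex Filter Bundle IsManifold Manifold Vale.Agent.P253.Mfd
  Vale.Agent.P253.CStar

set_option linter.unusedSectionVars false

noncomputable section

namespace Vale.Agent.P253.R2.H445

variable {E : Type*} [NormedAddCommGroup E] [NormedSpace ℂ E] [FiniteDimensional ℂ E]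
  {M : Type*} [MetricSpace M] [ChartedSpace E M] [IsManifold 𝓘(ℂ, E) 1 M]
  {ψ : ℂ → M → M}

theorem period_int (h : HolC E ψ) (k : ℤ) (x : M) : ψ (k * (2 * Real.pi * I)) x = x := by
  induction k using Int.induction_on with
  | zero => simp [h.zero]
  | succ k ih =>
    have e1 : ((k + 1 : ℤ) : ℂ) * (2 * Real.pi * I) =
        (k : ℤ) * (2 * Real.pi * I) + 2 * Real.pi * I := by push_cast; ring
    rw [e1, h.add, h.period, ih]
  | pred k ih =>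
    have e1 : ((-k : ℤ) : ℂ) * (2 * Real.pi * I) =
        2 * Real.pi * I + ((-k - 1 : ℤ) : ℂ) * (2 * Real.pi * I) := by push_cast; ring
    rw [e1, h.add, h.period] at ih
    exact ih

theorem eq_of_exp (h : HolC E ψ) {s t : ℂ} (hst : exp s = exp t) (x : M) : ψ s x = ψ t x := by
  obtain ⟨n, hn⟩ := exp_eq_exp_iff_exists_int.1 hst
  rw [hn, h.add, period_int h]

/-- the action of `ℂ*` -/
@[reducible] def cstar (h : HolC E ψ) : MulAction ℂˣ M where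
  smul a x := ψ (log a) x
  one_smul x := by
    change ψ (log ((1 : ℂˣ) : ℂ)) x = x
    rw [Units.val_one, log_one, h.zero]
  mul_smul a b x := by
    change ψ (log ((a * b : ℂˣ) : ℂ)) x = ψ (log a) (ψ (log b) x)
    rw [← h.add]
    apply eq_of_exp h
    rw [exp_add, exp_log a.ne_zero, exp_log b.ne_zero, exp_log (a * b).ne_zero, Units.val_mul]

theorem cstar_expU (h : HolC E ψ) (ζ : ℂ) (x : M) : (cstar h).toSMul.smul (expU ζ) x = ψ ζ x :=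
  eq_of_exp h (by rw [expU_val, exp_log (exp_ne_zero ζ)]) x

theorem cstar_holo (h : HolC E ψ) : @IsHolomorphicAction E _ _ M _ _ (cstar h) := by
  let _ := cstar h
  change ContMDiff (𝓘(ℂ, ℂ).prod 𝓘(ℂ, E)) 𝓘(ℂ, E) 1
    (fun q : ℂˣ × M => ψ (log (q.1 : ℂ)) q.2)
  intro q₀
  obtain ⟨a₀, x₀⟩ := q₀
  have ha0 : (a₀ : ℂ) ≠ 0 := a₀.ne_zero
  have heq : (fun q : ℂˣ × M => ψ (log (q.1 : ℂ)) q.2) =
      fun q : ℂˣ × M => ψ (log ((a₀ : ℂ)⁻¹ * (q.1 : ℂ)) + log a₀) q.2 := by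
    funext q
    apply eq_of_exp h
    rw [exp_add, exp_log q.1.ne_zero, exp_log ha0,
      exp_log (mul_ne_zero (inv_ne_zero ha0) q.1.ne_zero)]
    field_simp
  rw [heq]
  have h1 : ContDiffAt ℂ 1 (fun z : ℂ => log ((a₀ : ℂ)⁻¹ * z) + log a₀) (a₀ : ℂ) := by
    refine ContDiffAt.add ?_ contDiffAt_const
    have h5 : ContDiffAt ℂ 1 log ((a₀ : ℂ)⁻¹ * (a₀ : ℂ)) := by
      apply contDiffAt_log
      rw [inv_mul_cancel₀ ha0]
      exact one_mem_slitPlane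
    exact ContDiffAt.comp (a₀ : ℂ) (g := log) (f := fun z : ℂ => (a₀ : ℂ)⁻¹ * z) h5
      (contDiffAt_const.mul contDiffAt_id)
  have h2 : ContMDiffAt (𝓘(ℂ, ℂ).prod 𝓘(ℂ, E)) 𝓘(ℂ, ℂ) 1
      (fun q : ℂˣ × M => (q.1 : ℂ)) (a₀, x₀) :=
    (Units.contMDiff_val.comp contMDiff_fst).contMDiffAt
  have h3 : ContMDiffAt (𝓘(ℂ, ℂ).prod 𝓘(ℂ, E)) 𝓘(ℂ, ℂ) 1
      (fun q : ℂˣ × M => log ((a₀ : ℂ)⁻¹ * (q.1 : ℂ)) + log a₀) (a₀, x₀) :=
    ContMDiffAt.comp (a₀, x₀) (g := fun z : ℂ => log ((a₀ : ℂ)⁻¹ * z) + log a₀) h1.contMDiffAt h2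
  have h4 : ContMDiffAt (𝓘(ℂ, ℂ).prod 𝓘(ℂ, E)) (𝓘(ℂ, ℂ).prod 𝓘(ℂ, E)) 1
      (fun q : ℂˣ × M => (log ((a₀ : ℂ)⁻¹ * (q.1 : ℂ)) + log a₀, q.2)) (a₀, x₀) :=
    h3.prodMk contMDiffAt_snd
  exact ContMDiffAt.comp (a₀, x₀) (g := fun q : ℂ × M => ψ q.1 q.2) h.holo.contMDiffAt h4

end Vale.Agent.P253.R2.H445
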