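import Vale.Agent.P253.R2.H445.Final
import Vale.Agent.P253.R2.H156.Glob

/-!
P253, module M11: the extension property from the Kontinuitaetssatz `KP` and the Liouville theorem.
-/

open scoped Manifold ContDiff Topology Bundle
open Set Metric Complex Filter Bundle IsManifold Manifold Vale.Agent.P253.Mfd
  Vale.Agent.P253.CStar

set_option maxSynthPendingDepth 3
set_option linter.unusedSectionVars false

noncomputable section

namespace Vale.Agent.P253.R2.H445

variable {E : Type*} [NormedAddCommGroup E] [NormedSpace ℂ E] [FiniteDimensional ℂ E]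
  {M : Type*} [MetricSpace M] [ChartedSpace E M] [IsManifold 𝓘(ℂ, E) 1 M]
  [IsManifold 𝓘(ℝ, E) ∞ M]

theorem hasExt (hKP : H156.KP E M)
    (hL : ∀ u : M → EReal, UpperSemicontinuous u → (∀ x, u x ≤ 0) → H156.NoTouch E u →
      ∃ C, ∀ x, u x = C) : HasExt E M := by
  intro ρ hρ
  obtain ⟨ψ, h0, h1, h2, h3⟩ := H156.complexify hKP hL
    (⟨hρ.zero, hρ.add, hρ.smooth, hρ.holo⟩ : H156.IsHolFlow E ρ)
  exact ⟨ψ, ⟨h0, h1, h2⟩, h3⟩

end Vale.Agent.P253.R2.H445
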