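import Vale.Agent.P253.R2.H445.Final

/-!
P253, module M11: uniqueness of the holomorphic extension of an action of `ℝ`.
-/

open scoped Manifold ContDiff Topology Bundle
open Set Metric Complex Filter Bundle IsManifold Manifold Vale.Agent.P253.Mfd
  Vale.Agent.P253.CStar

set_option maxSynthPendingDepth 3
set_option linter.unusedSectionVars false

noncomputable section

namespace Vale.Agent.P253.R2.H445

variable {E : Type*} [NormedAddCommGroup E] [NormedSpace ℂ E] [FiniteDimensional ℂ E]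
  {M : Type*} [MetricSpace M] [ChartedSpace E M] [IsManifold 𝓘(ℂ, E) 1 M]
  {ψ ψ' : ℂ → M → M}

theorem orbit_mdiff (h : IsHolCFlow E ψ) (x : M) :
    MDifferentiable 𝓘(ℂ, ℂ) 𝓘(ℂ, E) (fun ζ => ψ ζ x) := by
  have h1 : ContMDiff 𝓘(ℂ, ℂ) 𝓘(ℂ, E) 1 (fun ζ => ψ ζ x) :=
    h.holo.comp (contMDiff_id.prodMk contMDiff_const)
  exact h1.mdifferentiable (by simp)

theorem eventually_eq (h : IsHolCFlow E ψ) (h' : IsHolCFlow E ψ')
    (he : ∀ (t : ℝ) x, ψ (t * I) x = ψ' (t * I) x) (x : M) :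
    ∀ᶠ ζ in 𝓝 (0:ℂ), ψ ζ x = ψ' ζ x := by
  have hCE : CompleteSpace E := FiniteDimensional.complete ℂ E
  set e := chartAt E x with hedef
  have hem : e ∈ maximalAtlas 𝓘(ℂ, E) 1 M := chart_mem_maximalAtlas x
  have hxs : x ∈ e.source := mem_chart_source E x
  have h1 : ∀ᶠ ζ in 𝓝 (0:ℂ), ψ ζ x ∈ e.source := by
    apply (orbit_mdiff h x).continuous.continuousAt.eventually
    apply e.open_source.mem_nhds
    simpa only [h.zero] using hxs
  have h1' : ∀ᶠ ζ in 𝓝 (0:ℂ), ψ' ζ x ∈ e.source := by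
    apply (orbit_mdiff h' x).continuous.continuousAt.eventually
    apply e.open_source.mem_nhds
    simpa only [h'.zero] using hxs
  obtain ⟨ε, hε, hball⟩ := Metric.eventually_nhds_iff_ball.1 (h1.and h1')
  have hd : ∀ {χ : ℂ → M → M}, IsHolCFlow E χ → (∀ ζ ∈ ball (0:ℂ) ε, χ ζ x ∈ e.source) →
      DifferentiableOn ℂ (fun ζ => e (χ ζ x)) (ball 0 ε) := by
    intro χ hχ hs ζ hζ
    have h2 : MDifferentiableAt 𝓘(ℂ, E) 𝓘(ℂ, E) e (χ ζ x) :=
      ((contMDiffOn_of_mem_maximalAtlas hem).contMDiffAt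
        (e.open_source.mem_nhds (hs ζ hζ))).mdifferentiableAt (by simp)
    have h3 := h2.comp ζ (orbit_mdiff hχ x ζ)
    exact h3.differentiableAt.differentiableWithinAt
  have heq := eqOn_of_axis hε (hd h fun ζ hζ => (hball ζ hζ).1) (hd h' fun ζ hζ => (hball ζ hζ).2)
    (fun θ _ => by simp only [he])
  filter_upwards [ball_mem_nhds (0:ℂ) hε] with ζ hζ
  exact e.injOn (hball ζ hζ).1 (hball ζ hζ).2 (heq hζ)

/-- a holomorphic action of `ℂ` is determined by the imaginary times -/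
theorem cflow_unique (h : IsHolCFlow E ψ) (h' : IsHolCFlow E ψ')
    (he : ∀ (t : ℝ) x, ψ (t * I) x = ψ' (t * I) x) : ψ = ψ' := by
  funext ζ x
  have h1 : {ζ : ℂ | ψ ζ x = ψ' ζ x} = univ := by
    refine IsClopen.eq_univ ⟨?_, ?_⟩ ⟨0, ?_⟩
    · exact isClosed_eq (orbit_mdiff h x).continuous (orbit_mdiff h' x).continuous
    · rw [isOpen_iff_mem_nhds]
      intro ζ hζ
      have h2 := eventually_eq h h' he (ψ ζ x)
      have h3 : Tendsto (fun η : ℂ => η - ζ) (𝓝 ζ) (𝓝 0) := by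
        have hc : Continuous (fun η : ℂ => η - ζ) := continuous_id.sub continuous_const
        have := hc.tendsto ζ
        simpa using this
      filter_upwards [h3.eventually h2] with η hη
      have hζ' : ψ ζ x = ψ' ζ x := hζ
      have e1 : η = (η - ζ) + ζ := by ring
      change ψ η x = ψ' η x
      rw [e1, h.add, h'.add, hη, hζ']
    · change ψ 0 x = ψ' 0 x
      rw [h.zero, h'.zero]
  have h2 : ζ ∈ {ζ : ℂ | ψ ζ x = ψ' ζ x} := h1 ▸ mem_univ ζ
  exact h2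

/-- existence and uniqueness -/
theorem existsUnique_ext (hExt : HasExt E M) {ρ : ℝ → M → M} (hρ : IsHolFlow E ρ) :
    ∃! ψ : ℂ → M → M, IsHolCFlow E ψ ∧ ∀ (t : ℝ) (x : M), ψ (t * I) x = ρ t x := by
  obtain ⟨ψ, hψ, he⟩ := hExt ρ hρ
  refine ⟨ψ, ⟨hψ, he⟩, fun ψ' hψ' => ?_⟩
  exact cflow_unique hψ'.1 hψ (fun t x => by rw [hψ'.2, he])

/-- circle actions extend to `ℂ*` -/
theorem circle_ext' (hExt : HasExt E M) {ρ : ℝ → M → M} (hρ : IsHolCircleAction E ρ) :
    ∃ _ : MulAction ℂˣ M, IsHolomorphicAction E M ∧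
      ∀ (a : ℂˣ) (t : ℝ) (x : M), (a : ℂ) = exp (t * I) → a • x = ρ t x := by
  obtain ⟨A, hA, h⟩ := circle_ext hExt hρ
  refine ⟨A, hA, fun a t x ha => ?_⟩
  have h1 : a = expU (t * I) := Units.ext ha
  rw [h1]
  exact h t x

end Vale.Agent.P253.R2.H445
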