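import Vale.Agent.P253.R2.H445.Dom
import Vale.Agent.P253.R2.H445.Uniq
import Vale.Agent.P253.R2.H445.Plug
import Vale.Agent.P253.R2.H451.KPProp
import Vale.Agent.P253.R2.H618.Liou2

/-!
P253, module M11: the extension property on complete Kähler manifolds of nonnegative bisectional
curvature, and the statements about domains in basis form.
-/

open scoped Manifold ContDiff Topology Bundle
open Set Metric Complex Filter Bundle IsManifold Manifold Vale.Agent.P253.Mfd
  Vale.Agent.P253.CStar

set_option maxSynthPendingDepth 3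
set_option linter.unusedSectionVars false

noncomputable section

namespace Vale.Agent.P253.R2.H445

variable {E : Type*} [NormedAddCommGroup E] [NormedSpace ℂ E] [FiniteDimensional ℂ E]
  {M : Type*} [MetricSpace M] [ChartedSpace E M] [IsManifold 𝓘(ℂ, E) 1 M]
  [IsManifold 𝓘(ℝ, E) ∞ M]

/-- tubes, in terms of a real subspace -/
theorem tube' (hExt : HasExt E M) [Nonempty M] {e : OpenPartialHomeomorph M E}
    (he : e ∈ maximalAtlas 𝓘(ℂ, E) 1 M) (hs : e.source = univ) {V : Submodule ℝ E}
    (hV : Submodule.span ℂ (V : Set E) = ⊤)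
    (hinv : ∀ z ∈ e.target, ∀ v ∈ V, z + v ∈ e.target) : e.target = univ := by
  refine tube hExt he hs hV fun v hv t z hz => ?_
  have h1 : (t : ℂ) • v = t • v := Complex.coe_smul t v
  rw [h1]
  exact hinv z hz _ (V.smul_mem t hv)

/-- quasi-circular domains, in terms of a basis -/
theorem circular' (hExt : HasExt E M) {e : OpenPartialHomeomorph M E}
    (he : e ∈ maximalAtlas 𝓘(ℂ, E) 1 M) (hs : e.source = univ) (h0 : (0 : E) ∈ e.target)
    {ι : Type*} [Fintype ι] (b : Module.Basis ι ℂ E) {m : ι → ℝ} (hm : ∀ j, 0 < m j)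
    (hinv : ∀ t : ℝ, ∀ z ∈ e.target, ∑ j, (exp (t * m j * I) * b.repr z j) • b j ∈ e.target) :
    e.target = univ := by
  refine circular hExt he hs h0 (b.equivFun.toContinuousLinearEquiv) hm fun t z hz => ?_
  have h1 := hinv t z hz
  have h2 : Mfd.LE (b.equivFun.toContinuousLinearEquiv) m (t * I) z =
      ∑ j, (exp (t * m j * I) * b.repr z j) • b j := by
    unfold Mfd.LE
    have h3 : ∀ c : ι → ℂ, (b.equivFun.toContinuousLinearEquiv).symm c = ∑ j, c j • b j := by
      intro c
      exact b.equivFun_symm_apply c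
    rw [h3]
    refine Finset.sum_congr rfl fun j _ => ?_
    have h4 : (t : ℂ) * I * (m j : ℂ) = t * m j * I := by ring
    rw [h4]
    rfl
  rw [h2]
  exact h1

variable [RiemannianBundle (fun x : M => TangentSpace 𝓘(ℝ, E) x)]
  [IsContMDiffRiemannianBundle 𝓘(ℝ, E) ∞ E (fun x : M => TangentSpace 𝓘(ℝ, E) x)]
  [IsRiemannianManifold 𝓘(ℝ, E) M]

/-- every smooth action of `ℝ` by holomorphic maps extends to `ℂ` -/
theorem hasExt_of_nonneg [CompleteSpace M] [ConnectedSpace M] (hK : IsKahler E M)
    (hnn : ∀ x : M, NonnegBisectionalAt E x) : HasExt E M :=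
  hasExt (H451.kp_prop hK hnn) (H618.liouville_noTouch hK hnn)

end Vale.Agent.P253.R2.H445
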