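import Vale.Agent.P253.CStar.Final
import Vale.Agent.P253.CStar.Conv

/-!
P253, module M11: from the holomorphic extension of a circle action to uniformization.
-/

open scoped Manifold ContDiff Topology Bundle
open Set Metric Complex Filter Bundle IsManifold Manifold Vale.Agent.P253.Mfd
  Vale.Agent.P253.CStar

set_option maxSynthPendingDepth 3
set_option linter.unusedSectionVars false

noncomputable section

namespace Vale.Agent.P253.R2.H445

/-- an additive subset of `ℂ` which contains a ball round zero is everything -/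
theorem all_of_ball {P : ℂ → Prop} (hadd : ∀ s t, P s → P t → P (s + t)) {ε : ℝ} (hε : 0 < ε)
    (hb : ∀ ζ ∈ ball (0:ℂ) ε, P ζ) (ζ : ℂ) : P ζ := by
  obtain ⟨n, hn⟩ := exists_nat_gt (‖ζ‖ / ε)
  have hn0 : 0 < (n:ℝ) := lt_of_le_of_lt (by positivity) hn
  have hn1 : n ≠ 0 := by
    rintro rfl
    simp at hn0
  have h1 : ζ / n ∈ ball (0:ℂ) ε := by
    rw [mem_ball_zero_iff, norm_div, norm_natCast, div_lt_iff₀ hn0]
    rw [div_lt_iff₀ hε] at hn
    linarith only [hn]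
  have h2 : ∀ k : ℕ, P ((k + 1 : ℕ) * (ζ / n)) := by
    intro k
    induction k with
    | zero =>
      simp only [zero_add, Nat.cast_one, one_mul]
      exact hb _ h1
    | succ k ih =>
      have e1 : ((k + 1 + 1 : ℕ) : ℂ) * (ζ / n) = ((k + 1 : ℕ) : ℂ) * (ζ / n) + ζ / n := by
        push_cast; ring
      rw [e1]
      exact hadd _ _ ih (hb _ h1)
  obtain ⟨k, rfl⟩ := Nat.exists_eq_succ_of_ne_zero hn1
  have h3 := h2 k
  have h4 : ((k.succ : ℕ) : ℂ) ≠ 0 := by exact_mod_cast hn1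
  have h5 : ((k + 1 : ℕ) : ℂ) * (ζ / (k.succ : ℕ)) = ζ := by
    rw [Nat.succ_eq_add_one] at h4 ⊢
    field_simp
  rw [h5] at h3
  exact h3

variable {E : Type*} [NormedAddCommGroup E] [NormedSpace ℂ E] [FiniteDimensional ℂ E]
  {M : Type*} [MetricSpace M] [ChartedSpace E M] [IsManifold 𝓘(ℂ, E) 1 M]
  {ι : Type*} [Fintype ι] {ψ : ℂ → M → M} {p : M}

/-- a fixed point of the circle is a fixed point of the action of `ℂ` -/
theorem fixed (h : HolC E ψ) (hp : ∀ θ : ℝ, ψ (θ * I) p = p) (ζ : ℂ) : ψ ζ p = p := by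
  have hCE : CompleteSpace E := FiniteDimensional.complete ℂ E
  set e := chartAt E p with he
  have hem : e ∈ maximalAtlas 𝓘(ℂ, E) 1 M := chart_mem_maximalAtlas p
  have hps : p ∈ e.source := mem_chart_source E p
  have hc : Continuous fun ζ => ψ ζ p := by
    have h2 : Continuous (fun ζ : ℂ => (ζ, p)) := by fun_prop
    exact h.cont.comp h2
  have h1 : ∀ᶠ ζ : ℂ in 𝓝 0, ψ ζ p ∈ e.source := by
    apply hc.continuousAt.eventually
    apply e.open_source.mem_nhds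
    simpa only [h.zero] using hps
  obtain ⟨ε, hε, hball⟩ := Metric.eventually_nhds_iff_ball.1 h1
  have hd : DifferentiableOn ℂ (fun ζ => e (ψ ζ p)) (ball 0 ε) := by
    intro ζ hζ
    have h2 : MDifferentiableAt 𝓘(ℂ, E) 𝓘(ℂ, E) e (ψ ζ p) :=
      ((contMDiffOn_of_mem_maximalAtlas hem).contMDiffAt
        (e.open_source.mem_nhds (hball ζ hζ))).mdifferentiableAt (by simp)
    have h3 := h2.comp ζ (h.orbit_mdiff p ζ)
    exact h3.differentiableAt.differentiableWithinAt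
  have heq := eqOn_of_axis hε hd (differentiableOn_const (e p)) (fun θ _ => by rw [hp θ])
  refine all_of_ball (P := fun ζ => ψ ζ p = p) (fun s t hs ht => ?_) hε (fun ζ hζ => ?_) ζ
  · rw [h.add, ht, hs]
  · exact e.injOn (hball ζ hζ) hps (heq hζ)

/-- the derivative of the action of `ℂ` at a fixed point is determined by the circle -/
theorem weights (h : HolC E ψ) (hp : ∀ ζ, ψ ζ p = p) {φ : E ≃L[ℂ] (ι → ℂ)} {m : ι → ℝ}
    (hw : ∀ (θ : ℝ) (v : E), (mfderiv 𝓘(ℂ, E) 𝓘(ℂ, E) (ψ (θ * I)) p : E → E) v =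
      LE φ m (θ * I) v) (ζ : ℂ) (v : E) :
    (mfderiv 𝓘(ℂ, E) 𝓘(ℂ, E) (ψ ζ) p : E → E) v = LE φ m ζ v := by
  have hCE : CompleteSpace E := FiniteDimensional.complete ℂ E
  set e := chartAt E p with he
  have hem : e ∈ maximalAtlas 𝓘(ℂ, E) 1 M := chart_mem_maximalAtlas p
  have hps : p ∈ e.source := mem_chart_source E p
  set z₀ := e p with hz₀
  have hΩ : IsOpen (HCΩ ψ e e) := isOpen_HCΩ h
  have hmem : ∀ ζ : ℂ, (ζ, z₀) ∈ HCΩ ψ e e := fun ζ =>
    ⟨e.map_source hps, by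
      simp only [hz₀]
      rw [e.left_inv hps, hp]
      exact hps⟩
  -- the derivative at `p` in the chart
  have hder : ∀ (ζ : ℂ) (v : E), (mfderiv 𝓘(ℂ, E) 𝓘(ℂ, E) (ψ ζ) p : E → E) v =
      fderiv ℂ (HC ψ e e) (ζ, z₀) (0, v) := by
    intro ζ v
    have hmd : MDifferentiableAt 𝓘(ℂ, E) 𝓘(ℂ, E) (ψ ζ) p := h.mdiff ζ p
    have h0 : (mfderiv 𝓘(ℂ, E) 𝓘(ℂ, E) (ψ ζ) p : E →L[ℂ] E) =
        fderivWithin ℂ (writtenInExtChartAt 𝓘(ℂ, E) 𝓘(ℂ, E) p (ψ ζ)) (range 𝓘(ℂ, E))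
          (extChartAt 𝓘(ℂ, E) p p) := hmd.mfderiv
    change (mfderiv 𝓘(ℂ, E) 𝓘(ℂ, E) (ψ ζ) p : E →L[ℂ] E) v = _
    rw [h0]
    simp only [writtenInExtChartAt, hp ζ, extChartAt, mfld_simps, fderivWithin_univ]
    have h1 := (hasFDerivAt_HC_right h hem hem (hmem ζ)).fderiv
    have h2 : fderiv ℂ (fun w => HC ψ e e (ζ, w)) z₀ v = fderiv ℂ (HC ψ e e) (ζ, z₀) (0, v) := by
      rw [h1]
      rfl
    rw [← h2]
    rfl
  -- it is holomorphic in the time
  have hsm : ContDiffOn ℂ ∞ (HC ψ e e) (HCΩ ψ e e) :=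
    contDiffOn_of_differentiableOn_complex hΩ
      (fun q hq => (differentiableAt_HC h hem hem hq).differentiableWithinAt)
  have hhol : ∀ v : E, Differentiable ℂ (fun ζ : ℂ => fderiv ℂ (HC ψ e e) (ζ, z₀) (0, v)) := by
    intro v ζ
    have h1 : ContDiffOn ℂ ∞ (fderiv ℂ (HC ψ e e)) (HCΩ ψ e e) :=
      hsm.fderiv_of_isOpen hΩ (by simp)
    have h2 : DifferentiableAt ℂ (fderiv ℂ (HC ψ e e)) (ζ, z₀) :=
      (h1.contDiffAt (hΩ.mem_nhds (hmem ζ))).differentiableAt (by simp)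
    have h3 : DifferentiableAt ℂ (fun ζ : ℂ => (ζ, z₀)) ζ := by fun_prop
    have h4 := h2.comp ζ h3
    exact h4.clm_apply (differentiableAt_const _)
  rw [hder]
  refine eq_of_axis (hhol v) (differentiable_LE (φ := φ) (m := m) v) (fun θ => ?_) ζ
  rw [← hder, hw]

end Vale.Agent.P253.R2.H445
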