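import Vale.Agent.P253.CStar.Conv
import Vale.Agent.P253.R2.H445.Defs

/-!
P253: on a manifold biholomorphic to `ℂⁿ` there is a holomorphic circle action with a fixed point
with positive weights (scalar multiplication).
-/

open scoped Manifold ContDiff Topology Bundle
open Set Complex IsManifold Manifold Vale.Agent.P253.Mfd Vale.Agent.P253.CStar

set_option linter.unusedSectionVars false

noncomputable section

namespace Vale.Agent.P253.R2.H445

section real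

variable {E : Type*} [NormedAddCommGroup E] [NormedSpace ℂ E] [FiniteDimensional ℂ E]
  {M : Type*} [TopologicalSpace M] [ChartedSpace E M] [IsManifold 𝓘(ℂ, E) 1 M]
  {E' : Type*} [NormedAddCommGroup E'] [NormedSpace ℂ E'] [FiniteDimensional ℂ E']
  {N : Type*} [TopologicalSpace N] [ChartedSpace E' N] [IsManifold 𝓘(ℂ, E') 1 N]

/-- holomorphic maps are smooth for the underlying real structures -/
theorem contMDiff_real {f : M → N} (hf : MDifferentiable 𝓘(ℂ, E) 𝓘(ℂ, E') f) :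
    ContMDiff 𝓘(ℝ, E) 𝓘(ℝ, E') ∞ f := by
  have hCE : CompleteSpace E' := FiniteDimensional.complete ℂ E'
  intro x
  rw [contMDiffAt_iff]
  refine ⟨hf.continuous.continuousAt, ?_⟩
  set e := chartAt E x with he
  set e' := chartAt E' (f x) with he'
  set U : Set E := e.target ∩ e.symm ⁻¹' (f ⁻¹' e'.source) with hU
  have hUo : IsOpen U :=
    e.continuousOn_symm.isOpen_inter_preimage e.open_target
      (e'.open_source.preimage hf.continuous)
  have hxU : e x ∈ U := ⟨e.map_source (mem_chart_source E x), by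
    simp only [mem_preimage]
    rw [e.left_inv (mem_chart_source E x)]
    exact mem_chart_source E' (f x)⟩
  have hd : DifferentiableOn ℂ (e' ∘ f ∘ e.symm) U := by
    intro z hz
    have h1 : MDifferentiableAt 𝓘(ℂ, E) 𝓘(ℂ, E) e.symm z :=
      ((contMDiffOn_symm_of_mem_maximalAtlas
        (chart_mem_maximalAtlas (I := 𝓘(ℂ, E)) (n := 1) x)).contMDiffAt
        (e.open_target.mem_nhds hz.1)).mdifferentiableAt (by simp)
    have h2 : MDifferentiableAt 𝓘(ℂ, E') 𝓘(ℂ, E') e' (f (e.symm z)) :=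
      ((contMDiffOn_of_mem_maximalAtlas
        (chart_mem_maximalAtlas (I := 𝓘(ℂ, E')) (n := 1) (f x))).contMDiffAt
        (e'.open_source.mem_nhds hz.2)).mdifferentiableAt (by simp)
    have h3 : MDifferentiableAt 𝓘(ℂ, E) 𝓘(ℂ, E') (e' ∘ f ∘ e.symm) z :=
      h2.comp z ((hf (e.symm z)).comp z h1)
    exact h3.differentiableAt.differentiableWithinAt
  have h4 : ContDiffAt ℝ ∞ (e' ∘ f ∘ e.symm) (e x) :=
    ((contDiffOn_of_differentiableOn_complex hUo hd).restrict_scalars ℝ).contDiffAt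
      (hUo.mem_nhds hxU)
  simp only [extChartAt, mfld_simps]
  exact h4.contDiffWithinAt

end real

variable {E : Type*} [NormedAddCommGroup E] [NormedSpace ℂ E] [FiniteDimensional ℂ E]
  {M : Type*} [MetricSpace M] [ChartedSpace E M] [IsManifold 𝓘(ℂ, E) 1 M]

/-- the circle action of scalar multiplication transported to `M` -/
def tcirc (F : M ≃ₘ^1⟮𝓘(ℂ, E), 𝓘(ℂ, E)⟯ E) (t : ℝ) (x : M) : M :=
  F.symm (exp (t * I) • F x)

theorem tcirc_action (F : M ≃ₘ^1⟮𝓘(ℂ, E), 𝓘(ℂ, E)⟯ E) : IsHolCircleAction E (tcirc F) where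
  zero x := by simp [tcirc]
  add s t x := by
    simp only [tcirc, F.apply_symm_apply, smul_smul, ← exp_add]
    congr 3
    push_cast
    ring
  smooth := by
    have h1 : ContMDiff 𝓘(ℝ, E) 𝓘(ℝ, E) ∞ F :=
      contMDiff_real (F.contMDiff.mdifferentiable (by simp))
    have h2 : ContMDiff 𝓘(ℝ, E) 𝓘(ℝ, E) ∞ F.symm :=
      contMDiff_real (F.symm.contMDiff.mdifferentiable (by simp))
    have h3 : ContMDiff (𝓘(ℝ, ℝ).prod 𝓘(ℝ, E)) 𝓘(ℝ, ℂ) ∞
        (fun q : ℝ × M => exp (q.1 * I)) := by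
      have h4 : ContDiff ℝ ∞ (fun t : ℝ => exp (t * I)) := by
        have : ContDiff ℝ ∞ (fun t : ℝ => (t : ℂ) * I) :=
          (ofRealCLM.contDiff).mul contDiff_const
        exact this.cexp
      exact h4.contMDiff.comp contMDiff_fst
    have h5 : ContMDiff (𝓘(ℝ, ℝ).prod 𝓘(ℝ, E)) 𝓘(ℝ, E) ∞ (fun q : ℝ × M => F q.2) :=
      h1.comp contMDiff_snd
    have h6 : ContMDiff (𝓘(ℝ, ℝ).prod 𝓘(ℝ, E)) 𝓘(ℝ, E) ∞
        (fun q : ℝ × M => exp (q.1 * I) • F q.2) := by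
      have h7 : ContDiff ℝ ∞ (fun q : ℂ × E => q.1 • q.2) :=
        (ContinuousLinearMap.lsmul ℝ ℂ (E := E)).isBoundedBilinearMap.contDiff
      exact h7.contMDiff.comp (h3.prodMk_space h5)
    exact h2.comp h6
  holo t := by
    have h1 : MDifferentiable 𝓘(ℂ, E) 𝓘(ℂ, E) F := F.contMDiff.mdifferentiable (by simp)
    have h2 : MDifferentiable 𝓘(ℂ, E) 𝓘(ℂ, E) F.symm :=
      F.symm.contMDiff.mdifferentiable (by simp)
    have h3 : MDifferentiable 𝓘(ℂ, E) 𝓘(ℂ, E) (fun z : E => exp (t * I) • z) :=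
      (differentiable_id.const_smul (exp (t * I))).mdifferentiable
    exact h2.comp (h3.comp h1)
  period x := by
    have h1 : exp (((2 * Real.pi : ℝ) : ℂ) * I) = 1 := by
      push_cast
      exact exp_two_pi_mul_I
    simp only [tcirc, h1, one_smul, F.symm_apply_apply]

theorem tcirc_pos (F : M ≃ₘ^1⟮𝓘(ℂ, E), 𝓘(ℂ, E)⟯ E) :
    IsPosFixedPoint E (tcirc F) (F.symm 0) := by
  refine ⟨fun t => ?_, Module.finBasis ℂ E, fun _ => 1, fun _ => one_pos, fun t j => ?_⟩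
  · simp [tcirc]
  · set v := Module.finBasis ℂ E j
    let T1 : E →L[ℂ] E := mfderiv 𝓘(ℂ, E) 𝓘(ℂ, E) F (F.symm 0)
    let T2 : E →L[ℂ] E := mfderiv 𝓘(ℂ, E) 𝓘(ℂ, E) F.symm 0
    have h1 : HasMFDerivAt 𝓘(ℂ, E) 𝓘(ℂ, E) F (F.symm 0) T1 :=
      ((F.contMDiff.mdifferentiable (by simp)) _).hasMFDerivAt
    have h2 : ∀ y : E, y = 0 → HasMFDerivAt 𝓘(ℂ, E) 𝓘(ℂ, E) F.symm y T2 := by
      rintro _ rfl
      exact ((F.symm.contMDiff.mdifferentiable (by simp)) _).hasMFDerivAt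
    have hF0 : F (F.symm 0) = 0 := F.apply_symm_apply 0
    have h3 : HasMFDerivAt 𝓘(ℂ, E) 𝓘(ℂ, E) (F.symm ∘ F) (F.symm 0) (T2.comp T1) :=
      (h2 _ hF0).comp _ h1
    have h4 : (F.symm ∘ F : M → M) = id := funext fun x => F.symm_apply_apply x
    rw [h4] at h3
    have h5 : (T2.comp T1 : E →L[ℂ] E) = ContinuousLinearMap.id ℂ E :=
      hasMFDerivAt_unique h3 (hasMFDerivAt_id _)
    set a : ℂ := exp (t * I) with ha
    have h6 : HasMFDerivAt 𝓘(ℂ, E) 𝓘(ℂ, E) (fun z : E => a • z) (F (F.symm 0))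
        (a • ContinuousLinearMap.id ℂ E) :=
      ((hasFDerivAt_id (𝕜 := ℂ) (F (F.symm 0))).const_smul a).hasMFDerivAt
    have h7 : HasMFDerivAt 𝓘(ℂ, E) 𝓘(ℂ, E) (F.symm ∘ (fun z : E => a • z) ∘ F) (F.symm 0)
        (T2.comp ((a • ContinuousLinearMap.id ℂ E).comp T1)) :=
      (h2 _ (by simp [hF0])).comp _ (h6.comp _ h1)
    have h8 : (mfderiv 𝓘(ℂ, E) 𝓘(ℂ, E) (tcirc F t) (F.symm 0) : E →L[ℂ] E) =
        T2.comp ((a • ContinuousLinearMap.id ℂ E).comp T1) := h7.mfderiv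
    have h9 : (mfderiv 𝓘(ℂ, E) 𝓘(ℂ, E) (tcirc F t) (F.symm 0) : E →L[ℂ] E) v =
        a • (T2.comp T1) v := by
      rw [h8]
      change T2 (a • T1 v) = a • T2 (T1 v)
      exact map_smul T2 _ _
    rw [h5] at h9
    simp only [ofReal_one, mul_one]
    exact h9

/-- The converse: `ℂⁿ` has a holomorphic circle action with a fixed point with positive
weights. -/
theorem converse_circle (F : M ≃ₘ^1⟮𝓘(ℂ, E), 𝓘(ℂ, E)⟯ E) :
    ∃ ρ : ℝ → M → M, IsHolCircleAction E ρ ∧ ∃ p : M, IsPosFixedPoint E ρ p :=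
  ⟨tcirc F, tcirc_action F, F.symm 0, tcirc_pos F⟩

end Vale.Agent.P253.R2.H445
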