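import Vale.Agent.P253.R2.H445.Final

/-!
P253: domains of `ℂⁿ` which are invariant under one-parameter groups: tubes, circular domains,
Reinhardt domains, from the extension property.
-/

open scoped Manifold ContDiff Topology Bundle
open Set Metric Complex Filter Bundle IsManifold Manifold Vale.Agent.P253.Mfd
  Vale.Agent.P253.CStar

set_option maxSynthPendingDepth 3
set_option linter.unusedSectionVars false

noncomputable section

namespace Vale.Agent.P253.R2.H445

variable {E : Type*} [NormedAddCommGroup E] [NormedSpace ℂ E] [FiniteDimensional ℂ E]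
  {M : Type*} [MetricSpace M] [ChartedSpace E M] [IsManifold 𝓘(ℂ, E) 1 M]
  [IsManifold 𝓘(ℝ, E) ∞ M]

/-- holomorphic flows on `E` in terms of differentiability -/
theorem isHolCFlow_of_diff {σ : ℂ → E → E} (h0 : ∀ x, σ 0 x = x)
    (hadd : ∀ s t x, σ (s + t) x = σ s (σ t x))
    (hd : Differentiable ℂ (fun q : ℂ × E => σ q.1 q.2)) : IsHolCFlow E σ where
  zero := h0
  add := hadd
  holo := by
    have hCE : CompleteSpace E := FiniteDimensional.complete ℂ E
    have h1 : ContDiff ℂ 1 (fun q : ℂ × E => σ q.1 q.2) := by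
      have h2 := contDiffOn_of_differentiableOn_complex isOpen_univ
        (hd.differentiableOn (s := univ))
      exact (contDiffOn_univ.1 h2).of_le (by simp)
    have h3 := h1.contMDiff
    rw [← modelWithCornersSelf_prod, chartedSpaceSelf_prod]
    exact h3

/-- A domain of `E` biholomorphic to `M` which is invariant under the real times of a holomorphic
flow is invariant under all complex times. -/
theorem inv_complex (hExt : HasExt E M) {e : OpenPartialHomeomorph M E}
    (he : e ∈ maximalAtlas 𝓘(ℂ, E) 1 M) (hs : e.source = univ) {σ : ℂ → E → E}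
    (hσ : IsHolCFlow E σ) (hinv : ∀ t : ℝ, ∀ z ∈ e.target, σ (t * I) z ∈ e.target) (ζ : ℂ)
    {z : E} (hz : z ∈ e.target) : σ ζ z ∈ e.target := by
  have hCE : CompleteSpace E := FiniteDimensional.complete ℂ E
  have hsrc : ∀ x : M, x ∈ e.source := fun x => hs ▸ mem_univ x
  have heh : ContMDiff 𝓘(ℂ, E) 𝓘(ℂ, E) 1 e := by
    have h1 := contMDiffOn_of_mem_maximalAtlas he
    rwa [hs, contMDiffOn_univ] at h1
  have hesym := contMDiffOn_symm_of_mem_maximalAtlas he
  have hσd : Differentiable ℂ (fun q : ℂ × E => σ q.1 q.2) := by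
    have h1 := hσ.holo
    rw [← modelWithCornersSelf_prod, chartedSpaceSelf_prod] at h1
    exact (contMDiff_iff_contDiff.1 h1).differentiable (by simp)
  set ρ : ℝ → M → M := fun t x => e.symm (σ (t * I) (e x)) with hρdef
  have her := mem_maximalAtlas_real he
  have hρ : IsHolFlow E ρ := by
    refine ⟨fun x => ?_, fun s t x => ?_, ?_, fun t x => ?_⟩
    · simp only [hρdef, ofReal_zero, zero_mul, hσ.zero]
      exact e.left_inv (hsrc x)
    · simp only [hρdef]
      rw [e.right_inv (hinv t _ (e.map_source (hsrc x))), ← hσ.add]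
      congr 2
      push_cast
      ring
    · have h1 : ContMDiff 𝓘(ℝ, E) 𝓘(ℝ, E) ∞ e := by
        have h2 := contMDiffOn_of_mem_maximalAtlas her
        rwa [hs, contMDiffOn_univ] at h2
      have h2 := contMDiffOn_symm_of_mem_maximalAtlas her
      have h3 : ContDiff ℝ ∞ (fun q : ℝ × E => σ (q.1 * I) q.2) := by
        have h4 : ContDiff ℝ ∞ (fun q : ℂ × E => σ q.1 q.2) := by
          have h5 := contDiffOn_of_differentiableOn_complex isOpen_univ
            (hσd.differentiableOn (s := univ))
          exact (contDiffOn_univ.1 h5).restrict_scalars ℝ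
        have h6 : ContDiff ℝ ∞ (fun q : ℝ × E => ((q.1 : ℂ) * I, q.2)) :=
          ((ofRealCLM.contDiff.comp contDiff_fst).mul contDiff_const).prodMk contDiff_snd
        exact h4.comp h6
      have h7 : ContMDiff (𝓘(ℝ, ℝ).prod 𝓘(ℝ, E)) 𝓘(ℝ, ℝ × E) ∞
          (fun q : ℝ × M => (q.1, e q.2)) :=
        contMDiff_fst.prodMk_space (h1.comp contMDiff_snd)
      have h8 : ContMDiff (𝓘(ℝ, ℝ).prod 𝓘(ℝ, E)) 𝓘(ℝ, E) ∞
          (fun q : ℝ × M => σ (q.1 * I) (e q.2)) :=
        ContMDiff.comp (g := fun q : ℝ × E => σ (q.1 * I) q.2) h3.contMDiff h7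
      have h9 := h2.comp h8.contMDiffOn (s := univ) (fun q _ =>
        hinv q.1 _ (e.map_source (hsrc q.2)))
      rw [contMDiffOn_univ] at h9
      exact h9
    · have h1 : MDifferentiableAt 𝓘(ℂ, E) 𝓘(ℂ, E) e x := (heh.mdifferentiable (by simp)) x
      have h2 : MDifferentiableAt 𝓘(ℂ, E) 𝓘(ℂ, E) (fun z => σ (t * I) z) (e x) := by
        have h3 : DifferentiableAt ℂ (fun z : E => σ (t * I) z) (e x) :=
          DifferentiableAt.comp (e x) (g := fun q : ℂ × E => σ q.1 q.2)
            (f := fun z : E => ((t : ℂ) * I, z)) (hσd _)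
            ((differentiableAt_const _).prodMk differentiableAt_id)
        exact h3.mdifferentiableAt
      have h3 : MDifferentiableAt 𝓘(ℂ, E) 𝓘(ℂ, E) e.symm (σ (t * I) (e x)) :=
        (hesym.contMDiffAt (e.open_target.mem_nhds
          (hinv t _ (e.map_source (hsrc x))))).mdifferentiableAt (by simp)
      exact h3.comp x (h2.comp x h1)
  obtain ⟨ψ, hψ, hψe⟩ := hExt ρ hρ
  have h1 : Differentiable ℂ (fun ζ => e (ψ ζ (e.symm z))) := by
    intro ζ
    have h2 : ContMDiff 𝓘(ℂ, ℂ) 𝓘(ℂ, E) 1 (fun ζ => ψ ζ (e.symm z)) :=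
      hψ.holo.comp (contMDiff_id.prodMk contMDiff_const)
    have h3 := (heh.comp h2).mdifferentiable (by simp) ζ
    exact h3.differentiableAt
  have h2 : Differentiable ℂ (fun ζ => σ ζ z) := by
    intro ζ
    exact DifferentiableAt.comp ζ (g := fun q : ℂ × E => σ q.1 q.2)
      (f := fun ζ : ℂ => (ζ, z)) (hσd _) (differentiableAt_id.prodMk (differentiableAt_const _))
  have h3 := eq_of_axis h1 h2 (fun θ => by
    simp only [hψe, hρdef]
    rw [e.right_inv hz, e.right_inv (hinv θ z hz)]) ζ
  rw [← h3]
  exact e.map_source (hsrc _)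

/-- tube domains -/
theorem tube (hExt : HasExt E M) [Nonempty M] {e : OpenPartialHomeomorph M E}
    (he : e ∈ maximalAtlas 𝓘(ℂ, E) 1 M) (hs : e.source = univ) {V : Set E}
    (hV : Submodule.span ℂ V = ⊤) (hinv : ∀ v ∈ V, ∀ t : ℝ, ∀ z ∈ e.target,
      z + (t : ℂ) • v ∈ e.target) : e.target = univ := by
  have key : ∀ v ∈ V, ∀ ζ : ℂ, ∀ z ∈ e.target, z + ζ • v ∈ e.target := by
    intro v hv ζ z hz
    set σ : ℂ → E → E := fun ζ z => z + ζ • ((-I) • v) with hσ
    have h1 : IsHolCFlow E σ := by
      apply isHolCFlow_of_diff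
      · intro x; simp [hσ]
      · intro s t x
        simp only [hσ, add_smul]
        abel
      · simp only [hσ]
        fun_prop
    have h2 := inv_complex hExt he hs h1 (fun t z hz => by
      have e1 : σ (t * I) z = z + (t : ℂ) • v := by
        simp only [hσ, smul_smul]
        congr 2
        linear_combination (-(t : ℂ)) * I_mul_I
      rw [e1]
      exact hinv v hv t z hz) (ζ * I) hz
    have e1 : σ (ζ * I) z = z + ζ • v := by
      simp only [hσ, smul_smul]
      congr 2
      linear_combination (-ζ) * I_mul_I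
    rwa [e1] at h2
  have hall : ∀ w : E, ∀ ζ : ℂ, ∀ z ∈ e.target, z + ζ • w ∈ e.target := by
    intro w
    have hw : w ∈ Submodule.span ℂ V := hV ▸ Submodule.mem_top
    induction hw using Submodule.span_induction with
    | mem v hv => exact key v hv
    | zero => intro ζ z hz; rwa [smul_zero, add_zero]
    | add x y _ _ hx hy =>
      intro ζ z hz
      rw [smul_add, ← add_assoc]
      exact hy ζ _ (hx ζ z hz)
    | smul a x _ ih =>
      intro ζ z hz
      rw [smul_smul]
      exact ih _ z hz
  obtain ⟨x⟩ := (inferInstance : Nonempty M)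
  have hx : e x ∈ e.target := e.map_source (hs ▸ mem_univ x)
  refine eq_univ_of_forall fun w => ?_
  have := hall (w - e x) 1 _ hx
  rwa [one_smul, add_sub_cancel] at this

variable {ι : Type*} [Fintype ι]

theorem isHolCFlow_LE (φ : E ≃L[ℂ] (ι → ℂ)) (m : ι → ℝ) : IsHolCFlow E (LE φ m) := by
  apply isHolCFlow_of_diff
  · exact fun x => LE_zero x
  · exact fun s t x => LE_add s t x
  · unfold Mfd.LE
    apply φ.symm.differentiable.comp
    rw [differentiable_pi]
    intro j
    have h1 : Differentiable ℂ (fun q : ℂ × E => φ q.2 j) := by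
      have h2 := differentiable_pi.1 (φ.differentiable.comp
        (differentiable_snd (𝕜 := ℂ) (E := ℂ) (F := E))) j
      exact h2
    exact ((differentiable_fst.mul (differentiable_const _)).cexp).mul h1

/-- quasi-circular domains containing their centre -/
theorem circular (hExt : HasExt E M) {e : OpenPartialHomeomorph M E}
    (he : e ∈ maximalAtlas 𝓘(ℂ, E) 1 M) (hs : e.source = univ) (h0 : (0 : E) ∈ e.target)
    (φ : E ≃L[ℂ] (ι → ℂ)) {m : ι → ℝ} (hm : ∀ j, 0 < m j)
    (hinv : ∀ t : ℝ, ∀ z ∈ e.target, LE φ m (t * I) z ∈ e.target) : e.target = univ := by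
  refine eq_univ_of_forall fun w => ?_
  have h1 : Tendsto (fun t : ℝ => LE φ m (t : ℂ) w) atBot (𝓝 0) := by
    have h2 : Tendsto (fun t : ℝ => (fun j => Complex.exp (t * m j) * φ w j : ι → ℂ)) atBot
        (𝓝 0) := by
      rw [tendsto_pi_nhds]
      intro j
      have h3 : Tendsto (fun t : ℝ => Complex.exp (t * m j)) atBot (𝓝 0) := by
        rw [tendsto_zero_iff_norm_tendsto_zero]
        simp only [norm_exp_mul]
        exact Real.tendsto_exp_atBot.comp (tendsto_id.atBot_mul_const (hm j))
      simpa using h3.mul_const (φ w j)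
    have h3 := (φ.symm.continuous.tendsto 0).comp h2
    rw [map_zero] at h3
    exact h3
  have h2 : ∀ᶠ t : ℝ in atBot, LE φ m (t : ℂ) w ∈ e.target :=
    h1.eventually (e.open_target.mem_nhds h0)
  obtain ⟨t, ht⟩ := h2.exists
  have h3 := inv_complex hExt he hs (isHolCFlow_LE φ m) hinv (-(t : ℂ)) ht
  rw [← LE_add, neg_add_cancel, LE_zero] at h3
  exact h3

/-- Reinhardt domains are invariant under the complex torus -/
theorem reinhardt (hExt : HasExt E M) {e : OpenPartialHomeomorph M E}
    (he : e ∈ maximalAtlas 𝓘(ℂ, E) 1 M) (hs : e.source = univ)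
    (φ : E ≃L[ℂ] (ι → ℂ))
    (hinv : ∀ θ : ι → ℝ, ∀ z ∈ e.target, φ.symm (fun j => exp (θ j * I) * φ z j) ∈ e.target)
    (a : ι → ℂ) (ha : ∀ j, a j ≠ 0) {z : E} (hz : z ∈ e.target) :
    φ.symm (fun j => a j * φ z j) ∈ e.target := by
  classical
  have key : ∀ (j : ι) (ζ : ℂ), ∀ z ∈ e.target,
      φ.symm (fun k => (if k = j then exp ζ else 1) * φ z k) ∈ e.target := by
    intro j ζ z hz
    have h1 := inv_complex hExt he hs (isHolCFlow_LE φ (fun k => if k = j then (1:ℝ) else 0))
      (fun t z hz => by
        have h2 := hinv (fun k => if k = j then t else 0) z hz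
        convert h2 using 2
        unfold Mfd.LE
        congr 1
        funext k
        by_cases hk : k = j
        · simp [hk]
        · simp [hk]) ζ hz
    convert h1 using 1
    unfold Mfd.LE
    congr 1
    funext k
    by_cases hk : k = j
    · simp [hk]
    · simp [hk]
  have hfin : ∀ s : Finset ι, ∀ z ∈ e.target,
      φ.symm (fun k => (if k ∈ s then a k else 1) * φ z k) ∈ e.target := by
    intro s
    induction s using Finset.induction_on with
    | empty =>
      intro z hz
      simpa using hz
    | insert j s hj ih =>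
      intro z hz
      have h1 := key j (log (a j)) _ (ih z hz)
      convert h1 using 2
      funext k
      by_cases hk : k = j
      · subst hk
        simp [hj, exp_log (ha k)]
      · simp [hk]
  simpa using hfin Finset.univ z hz

end Vale.Agent.P253.R2.H445
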