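import Vale.Agent.P253.R2.H445.Main
import Vale.Agent.P253.R2.H445.Conv
import Vale.Agent.P253.R2.H445.Act

/-!
P253, module M11: final assembly, from the extension theorem for holomorphic `ℝ`-actions
(hypothesis `hExt`, modules M8-M10).
-/

open scoped Manifold ContDiff Topology Bundle
open Set Metric Complex Filter Bundle IsManifold Manifold Vale.Agent.P253.Mfd
  Vale.Agent.P253.CStar

set_option maxSynthPendingDepth 3
set_option linter.unusedSectionVars false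

noncomputable section

namespace Vale.Agent.P253.R2.H445

variable {E : Type*} [NormedAddCommGroup E] [NormedSpace ℂ E] [FiniteDimensional ℂ E]
  {M : Type*} [MetricSpace M] [ChartedSpace E M] [IsManifold 𝓘(ℂ, E) 1 M]

variable (E M) in
/-- the extension property: every smooth action of `ℝ` by holomorphic maps extends to a
holomorphic action of `ℂ` -/
def HasExt : Prop :=
  ∀ ρ : ℝ → M → M, IsHolFlow E ρ →
    ∃ ψ : ℂ → M → M, IsHolCFlow E ψ ∧ ∀ (t : ℝ) x, ψ (t * I) x = ρ t x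

/-- circle actions extend to `ℂ*` -/
theorem circle_ext (hExt : HasExt E M) {ρ : ℝ → M → M} (hρ : IsHolCircleAction E ρ) :
    ∃ A : MulAction ℂˣ M, @IsHolomorphicAction E _ _ M _ _ A ∧
      ∀ (t : ℝ) x, A.toSMul.smul (expU (t * I)) x = ρ t x := by
  obtain ⟨ψ, hψ, he⟩ := hExt ρ hρ.toIsHolFlow
  have hC := holC_of_ext hρ hψ he
  refine ⟨cstar hC, cstar_holo hC, fun t x => ?_⟩
  rw [cstar_expU, he]

variable [IsManifold 𝓘(ℝ, E) ∞ M]
  [RiemannianBundle (fun x : M => TangentSpace 𝓘(ℝ, E) x)]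
  [IsContMDiffRiemannianBundle 𝓘(ℝ, E) ∞ E (fun x : M => TangentSpace 𝓘(ℝ, E) x)]
  [IsRiemannianManifold 𝓘(ℝ, E) M]

/-- all the consequences for circle actions -/
theorem final (hK : IsKahler E M) [CompleteSpace M] [NoncompactSpace M] [ConnectedSpace M]
    (hnn : ∀ x : M, NonnegBisectionalAt E x) (hExt : HasExt E M) :
    (∀ ρ : ℝ → M → M, IsHolCircleAction E ρ → ∀ p : M, IsPosFixedPoint E ρ p →
      PosBisectionalAt E p →
      ∃ F : M ≃ₘ^1⟮𝓘(ℂ, E), 𝓘(ℂ, E)⟯ E, F p = 0 ∧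
        (∀ v : E, (mfderiv 𝓘(ℂ, E) 𝓘(ℂ, E) F p : E → E) v = v) ∧
        (∀ (t : ℝ) (x : M), F (ρ t x) = (mfderiv 𝓘(ℂ, E) 𝓘(ℂ, E) (ρ t) p : E → E) (F x)) ∧
        ∃ C > 0, ∀ (x : M) (R : ℝ), (∀ t : ℝ, dist p (ρ t x) ≤ R) →
          ‖F x‖ ≤ C * Real.exp (C * R)) ∧
    ((∀ x : M, PosBisectionalAt E x) →
      (Nonempty (M ≃ₘ^1⟮𝓘(ℂ, E), 𝓘(ℂ, E)⟯ E) ↔
        ∃ ρ : ℝ → M → M, IsHolCircleAction E ρ ∧ ∃ p : M, IsPosFixedPoint E ρ p)) := by
  refine ⟨fun ρ hρ p hp hpos => ?_, fun hall => ⟨?_, ?_⟩⟩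
  · obtain ⟨ψ, hψ, he⟩ := hExt ρ hρ.toIsHolFlow
    exact main_circle hK hnn hρ hψ he hp hpos
  · rintro ⟨F⟩
    exact converse_circle F
  · rintro ⟨ρ, hρ, p, hp⟩
    obtain ⟨ψ, hψ, he⟩ := hExt ρ hρ.toIsHolFlow
    obtain ⟨F, -⟩ := main_circle hK hnn hρ hψ he hp (hall p)
    exact ⟨F⟩

end Vale.Agent.P253.R2.H445
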