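import Vale.Agent.P253.R2.H445.Defs
import Vale.Agent.P253.R2.H445.Circ

/-!
P253, module M11: uniformization of manifolds with a holomorphic circle action with a fixed point
with positive weights, from the extension of the circle action to an action of `ℂ`.
-/

open scoped Manifold ContDiff Topology Bundle
open Set Metric Complex Filter Bundle IsManifold Manifold Vale.Agent.P253.Mfd
  Vale.Agent.P253.CStar

set_option maxSynthPendingDepth 3
set_option linter.unusedSectionVars false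

noncomputable section

namespace Vale.Agent.P253.R2.H445

variable {E : Type*} [NormedAddCommGroup E] [NormedSpace ℂ E] [FiniteDimensional ℂ E]
  {M : Type*} [MetricSpace M] [ChartedSpace E M] [IsManifold 𝓘(ℂ, E) 1 M]
  {ρ : ℝ → M → M} {ψ : ℂ → M → M} {p : M}

theorem holC_of_ext (hρ : IsHolCircleAction E ρ) (hψ : IsHolCFlow E ψ)
    (he : ∀ (t : ℝ) x, ψ (t * I) x = ρ t x) : HolC E ψ where
  zero := hψ.zero
  add := hψ.add
  period x := by
    have h1 := he (2 * Real.pi) x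
    rw [hρ.period] at h1
    rw [← h1]
    congr 1
    push_cast
    ring
  holo := hψ.holo

/-- the differentials of the circle action at the fixed point in coordinates -/
theorem weights_real {b : Module.Basis (Fin (Module.finrank ℂ E)) ℂ E}
    {m : Fin (Module.finrank ℂ E) → ℝ}
    (hw : ∀ (t : ℝ) j, mfderiv 𝓘(ℂ, E) 𝓘(ℂ, E) (ρ t) p (b j) = exp (t * m j * I) • b j)
    (t : ℝ) (v : E) :
    (mfderiv 𝓘(ℂ, E) 𝓘(ℂ, E) (ρ t) p : E → E) v =
      LE (b.equivFun.toContinuousLinearEquiv) m (t * I) v := by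
  set φ : E ≃L[ℂ] (Fin (Module.finrank ℂ E) → ℂ) := b.equivFun.toContinuousLinearEquiv with hφ
  let T₀ : E →L[ℂ] E := mfderiv 𝓘(ℂ, E) 𝓘(ℂ, E) (ρ t) p
  let T : E →ₗ[ℂ] E := T₀.toLinearMap
  let L : E →ₗ[ℂ] E := (LEL φ m (t * I)).toLinearMap
  have hTL : T = L := by
    apply b.ext
    intro j
    apply ext_coord (φ := φ)
    intro k
    have h1 : T (b j) = exp (t * m j * I) • b j := hw t j
    have h2 : φ (L (b j)) k = Complex.exp (t * I * (m k : ℂ)) * φ (b j) k := LE_coord _ _ _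
    rw [h1, h2, map_smul, Pi.smul_apply, smul_eq_mul]
    have h3 : φ (b j) k = if j = k then 1 else 0 := by
      simp [hφ]
    rw [h3]
    by_cases hjk : j = k
    · subst hjk
      rw [if_pos rfl]
      congr 2
      ring
    · rw [if_neg hjk]; simp
  exact congrArg (fun S : E →ₗ[ℂ] E => S v) hTL

variable [IsManifold 𝓘(ℝ, E) ∞ M]
  [RiemannianBundle (fun x : M => TangentSpace 𝓘(ℝ, E) x)]
  [IsContMDiffRiemannianBundle 𝓘(ℝ, E) ∞ E (fun x : M => TangentSpace 𝓘(ℝ, E) x)]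
  [IsRiemannianManifold 𝓘(ℝ, E) M]

/-- uniformization for circle actions which extend to `ℂ` -/
theorem main_circle (hK : IsKahler E M) [CompleteSpace M] [NoncompactSpace M] [ConnectedSpace M]
    (hnn : ∀ x : M, NonnegBisectionalAt E x) (hρ : IsHolCircleAction E ρ)
    (hψ : IsHolCFlow E ψ) (he : ∀ (t : ℝ) x, ψ (t * I) x = ρ t x)
    (hp : IsPosFixedPoint E ρ p) (hpos : PosBisectionalAt E p) :
    ∃ F : M ≃ₘ^1⟮𝓘(ℂ, E), 𝓘(ℂ, E)⟯ E, F p = 0 ∧
      (∀ v : E, (mfderiv 𝓘(ℂ, E) 𝓘(ℂ, E) F p : E → E) v = v) ∧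
      (∀ (t : ℝ) (x : M), F (ρ t x) = (mfderiv 𝓘(ℂ, E) 𝓘(ℂ, E) (ρ t) p : E → E) (F x)) ∧
      ∃ C > 0, ∀ (x : M) (R : ℝ), (∀ t : ℝ, dist p (ρ t x) ≤ R) →
        ‖F x‖ ≤ C * Real.exp (C * R) := by
  obtain ⟨hfix, b, m, hm, hw⟩ := hp
  have hC := holC_of_ext hρ hψ he
  have hfixψ : ∀ ζ, ψ ζ p = p := fixed hC (fun θ => by rw [he, hfix])
  have hwψ : ∀ (ζ : ℂ) (v : E), (mfderiv 𝓘(ℂ, E) 𝓘(ℂ, E) (ψ ζ) p : E → E) v =
      LE b.equivFun.toContinuousLinearEquiv m ζ v := by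
    refine weights hC hfixψ (fun θ v => ?_)
    have h1 : ψ (θ * I) = ρ θ := funext fun x => he θ x
    rw [h1]
    exact weights_real hw θ v
  obtain ⟨F, h0, h1, h2, C, hC0, h3⟩ := main_psi hK hnn hpos hC hfixψ
    b.equivFun.toContinuousLinearEquiv hm hwψ
  refine ⟨F, h0, h1, fun t x => ?_, C, hC0, fun x R hR => h3 x R fun θ => ?_⟩
  · rw [weights_real hw t (F x), ← h2, he]
  · rw [he]
    exact hR θ

end Vale.Agent.P253.R2.H445
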